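/-
Dimension three, any norm (proof of findings item 2323): height rigidity, reachable pairs of normals,
the one sided lemma and the key identity at every point of the sphere.
-/
import Vale.Agent.Lib.P084.D3.KeyLemma

namespace Vale.Agent.Lib.P084.T3

open Filter Topology Metric Vale.Agent.Lib.P084.D3

section PL

variable {E : Type*} [NormedAddCommGroup E] [NormedSpace ℝ E]

lemma pl_aux {la mu A B A' B' : ℝ} (h0 : 0 < mu) (hlt : mu < 1) (h1 : la * A + mu * B = 1)
    (hB : B ≤ 1) (hA : 0 ≤ A) (h2 : (la - 1) * A' + mu * B' = 1) (hA1 : A' ≤ 0) (hA2 : -1 ≤ A')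
    (hB' : B' ≤ 1 + A') : False := by
  have h3 : 0 < la * A := by nlinarith
  have hla : 0 < la := by
    by_contra hc
    push Not at hc
    nlinarith
  have h4 : 1 - mu ≤ (la - 1 + mu) * A' := by nlinarith
  have hA3 : A' < 0 := by
    rcases hA1.lt_or_eq with h | h
    · exact h
    · rw [h, mul_zero] at h4
      linarith
  have h5 : la - 1 + mu < 0 := by
    by_contra hc
    push Not at hc
    nlinarith
  nlinarith [mul_nonneg (by linarith : (0:ℝ) ≤ -(la - 1 + mu)) (by linarith : (0:ℝ) ≤ A' + 1)]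

lemma apply_le_of_norm {ℓ : E →L[ℝ] ℝ} (h : ‖ℓ‖ ≤ 1) {v : E} (hv : ‖v‖ = 1) :
    ℓ v ≤ 1 ∧ -1 ≤ ℓ v := by
  have h1 := ℓ.le_opNorm v
  rw [hv, mul_one, Real.norm_eq_abs] at h1
  have h2 := abs_le.1 (h1.trans h)
  exact ⟨h2.2, h2.1⟩

/-- Height rigidity with four given functionals. -/
theorem pl_pos {a b b' : E} (ha : ‖a‖ = 1) (hb : ‖b‖ = 1) (hb' : ‖b'‖ = 1) (hab : ‖a - b‖ = 1)
    (hab' : ‖a - b'‖ = 1) {l1 l2 l3 l4 : E →L[ℝ] ℝ} (h1 : ‖l1‖ ≤ 1) (h2 : ‖l2‖ ≤ 1) (h3 : ‖l3‖ ≤ 1)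
    (h4 : ‖l4‖ ≤ 1) (e1 : l1 b' = 1) (e2 : l2 (b' - a) = 1) (e3 : l3 b = 1) (e4 : l4 (b - a) = 1)
    {la mu : ℝ} (hmu : 0 < mu) (r1 : l1 b' = la * l1 a + mu * l1 b)
    (r2 : l2 b' = la * l2 a + mu * l2 b) (r3 : l3 b' = la * l3 a + mu * l3 b)
    (r4 : l4 b' = la * l4 a + mu * l4 b) : mu = 1 := by
  have hba : ‖b - a‖ = 1 := by rw [norm_sub_rev]; exact hab
  have hb'a : ‖b' - a‖ = 1 := by rw [norm_sub_rev]; exact hab'
  rcases lt_trichotomy mu 1 with hlt | heq | hgt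
  · exfalso
    have s1 := apply_le_of_norm h1 hb
    have s2 := apply_le_of_norm h1 hb'a
    have s3 := apply_le_of_norm h2 hb'
    have s4 := apply_le_of_norm h2 ha
    have s5 := apply_le_of_norm h2 hba
    rw [map_sub] at s2 s5 e2
    refine pl_aux (la := la) (mu := mu) (A := l1 a) (B := l1 b) (A' := l2 a) (B' := l2 b) hmu hlt
      (by linarith) s1.1 (by linarith [s2.1]) (by linarith) (by linarith [s3.1]) s4.2
      (by linarith [s5.1])
  · exact heq
  · exfalso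
    have hmu0 : mu ≠ 0 := hmu.ne'
    have s1 := apply_le_of_norm h3 hb'
    have s2 := apply_le_of_norm h3 hba
    have s3 := apply_le_of_norm h4 hb
    have s4 := apply_le_of_norm h4 ha
    have s5 := apply_le_of_norm h4 hb'a
    rw [map_sub] at s2 s5 e4
    have hinv : 1 / mu < 1 := by
      rw [div_lt_one hmu]; exact hgt
    refine pl_aux (la := -la / mu) (mu := 1 / mu) (A := l3 a) (B := l3 b') (A' := l4 a)
      (B' := l4 b') (by positivity) hinv ?_ s1.1 (by linarith [s2.1]) ?_ (by linarith [s3.1]) s4.2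
      (by linarith [s5.1])
    · rw [r3]; field_simp; rw [e3]; ring
    · have e4' : l4 b = 1 + l4 a := by linarith
      rw [r4, e4']; field_simp; ring

end PL

section Same

variable {X Y : Type*} [NormedAddCommGroup X] [NormedSpace ℝ X] [NormedAddCommGroup Y]
  [NormedSpace ℝ Y]

/-- A unit point strictly inside a chord of unit vectors: the chord is on the sphere. -/
theorem chord_unit {a b m : X} (ha : ‖a‖ = 1) (hb : ‖b‖ = 1) (hm : ‖m‖ = 1) {τ : ℝ} (h0 : 0 < τ)
    (h1 : τ < 1) (hmab : m = a + τ • (b - a)) : ∀ t ∈ Set.Icc (0 : ℝ) 1, ‖a + t • (b - a)‖ = 1 := by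
  have hℓ := nr_mem hm
  have h2 := nrm_le hℓ a
  have h3 := nrm_le hℓ b
  rw [ha] at h2
  rw [hb] at h3
  have h4 : nr m m = 1 := hℓ.2
  have h5 : nr m m = nr m a + τ * (nr m b - nr m a) := by
    have h50 : nr m (a + τ • (b - a)) = nr m a + τ * (nr m b - nr m a) := by simp
    rwa [← hmab] at h50
  have h6 : nr m a = 1 := by nlinarith
  have h7 : nr m b = 1 := by nlinarith
  intro t ht
  apply le_antisymm
  · have h8 : a + t • (b - a) = (1 - t) • a + t • b := by
      rw [smul_sub, sub_smul, one_smul]; abel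
    rw [h8]
    have h9 := norm_add_le ((1 - t) • a) (t • b)
    rw [norm_smul, norm_smul, ha, hb, Real.norm_of_nonneg (by linarith [ht.2]),
      Real.norm_of_nonneg ht.1] at h9
    linarith
  · have h9 := nrm_le hℓ (a + t • (b - a))
    have h10 : nr m (a + t • (b - a)) = 1 := by
      simp [h6, h7]
    rw [h10] at h9
    exact h9

/-- Affinity along a chord in direction `s`. -/
theorem aff_step {f : X → Y} (hC : Ctx f) {s y y' : X} (hs : ‖s‖ = 1) (hy : ‖y‖ = 1)
    (hy' : ‖y'‖ = 1) (hy's : ‖y' - s‖ = 1) {t : ℝ} (ht : 0 < t) (h : y = y' + t • s) :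
    f y = f y' + t • f s := by
  set a := y' - s with ha
  have hba : y - a = (1 + t) • s := by
    rw [h, ha, add_smul, one_smul]; abel
  have h1t : 0 < 1 + t := by linarith
  set τ : ℝ := (1 + t)⁻¹ with hτ
  have hτ0 : 0 < τ := inv_pos.2 h1t
  have hτ1 : τ < 1 := inv_lt_one_of_one_lt₀ (by linarith)
  have hτt : τ * (1 + t) = 1 := inv_mul_cancel₀ h1t.ne'
  have hm : y' = a + τ • (y - a) := by
    rw [hba, smul_smul, hτt, one_smul, ha]; abel
  have hseg := chord_unit hy's hy hy' hτ0 hτ1 hm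
  have haff := hC.aff a y hseg τ ⟨hτ0.le, hτ1.le⟩
  rw [← hm] at haff
  have hadd := hC.add a s hy's hs (by rw [ha, sub_add_cancel]; exact hy')
  have has : a + s = y' := by rw [ha, sub_add_cancel]
  rw [has] at hadd
  have h2 : τ • (f y - f a) = f s := by
    rw [hadd] at haff
    have : f a + f s - f a = τ • (f y - f a) := by
      conv_lhs => rw [haff]
      abel
    rw [← this]; abel
  have h3 : f y - f a = (1 + t) • f s := by
    have h4 : (1 + t) • τ • (f y - f a) = f y - f a := by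
      rw [smul_smul, mul_comm, hτt, one_smul]
    rw [← h4, h2]
  have h5 : f y = f a + (1 + t) • f s := by rw [← h3]; abel
  rw [h5, hadd, add_smul, one_smul]; abel

/-- Two points of `Eo s` in one open half plane through the axis `s` differ by a multiple of `s`,
and `f` respects this. -/
theorem same_side {f : X → Y} (hC : Ctx f) {s y y' : X} (hs : ‖s‖ = 1) (hy : y ∈ Eo s)
    (hy' : y' ∈ Eo s) {al be : ℝ} (hbe : 0 < be) (h : y = al • s + be • y') :
    be = 1 ∧ f y = f y' + al • f s := by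
  have hy1 : ‖y‖ = 1 := hy.1
  have hy'1 : ‖y'‖ = 1 := hy'.1
  have hsy : ‖s - y‖ = 1 := hy.2
  have hsy' : ‖s - y'‖ = 1 := hy'.2
  have hys : ‖y - s‖ = 1 := by rw [norm_sub_rev]; exact hsy
  have hy's : ‖y' - s‖ = 1 := by rw [norm_sub_rev]; exact hsy'
  have hval : ∀ l : X →L[ℝ] ℝ, l y = al * l s + be * l y' := by
    intro l
    rw [h]
    simp
  have hbe1 : be = 1 :=
    pl_pos (a := s) (b := y') (b' := y) hs hy'1 hy1 hsy' hsy
      (l1 := nr y) (l2 := nr (y - s)) (l3 := nr y') (l4 := nr (y' - s))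
      (nr_mem hy1).1 (nr_mem hys).1 (nr_mem hy'1).1 (nr_mem hy's).1
      (nr_mem hy1).2 (nr_mem hys).2 (nr_mem hy'1).2 (nr_mem hy's).2 (la := al) hbe
      (hval _) (hval _) (hval _) (hval _)
  refine ⟨hbe1, ?_⟩
  rw [hbe1, one_smul] at h
  rcases lt_trichotomy al 0 with hal | hal | hal
  · have h1 : y' = y + (-al) • s := by
      rw [h, neg_smul]; abel
    have := aff_step hC hs hy'1 hy1 hys (by linarith : 0 < -al) h1
    rw [this, neg_smul]; abel
  · rw [h, hal, zero_smul, zero_add, zero_smul, add_zero]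
  · have h1 : y = y' + al • s := by rw [h]; abel
    exact aff_step hC hs hy1 hy'1 hy's hal h1

/-- Distance to a line through a neighbour. -/
lemma dist_line {a c : X} (ha : ‖a‖ = 1) (hc : ‖c‖ = 1) (hac : ‖c - a‖ = 1) (r : ℝ) :
    1 / 2 ≤ ‖a + r • c‖ := by
  have hrn : ‖r • c‖ = |r| := by rw [norm_smul, hc, mul_one, Real.norm_eq_abs]
  rcases le_total 0 r with hr | hr
  · -- `a = (1/(1+r)) (a + r c) + (r/(1+r)) (a - c)`
    have h1r : 0 < 1 + r := by linarith
    have e : (1 + r) • a = (a + r • c) + r • (a - c) := by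
      rw [smul_sub, add_smul, one_smul]; abel
    have h1 : (1 + r) * 1 ≤ ‖a + r • c‖ + r * 1 := by
      have h2 := congrArg norm e
      rw [norm_smul, ha, Real.norm_of_nonneg h1r.le] at h2
      have h3 := norm_add_le (a + r • c) (r • (a - c))
      rw [norm_smul, norm_sub_rev a c, hac, Real.norm_of_nonneg hr] at h3
      linarith
    linarith
  · have hr' : |r| = -r := abs_of_nonpos hr
    have h1 : 1 - |r| ≤ ‖a + r • c‖ := by
      have := norm_sub_norm_le a (-(r • c))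
      rw [norm_neg, hrn, ha, sub_neg_eq_add] at this
      exact this
    have h2 : |r| - 1 ≤ ‖a + r • c‖ := by
      have := norm_sub_norm_le (r • c) (-a)
      rw [norm_neg, hrn, ha, sub_neg_eq_add, add_comm] at this
      exact this
    have h3 : 1 - |1 + r| ≤ ‖a + r • c‖ := by
      have e : a - c = (a + r • c) + (-(1 + r)) • c := by
        rw [neg_smul, add_smul, one_smul]; abel
      have h4 := norm_add_le (a + r • c) ((-(1 + r)) • c)
      rw [← e, norm_smul, hc, mul_one, Real.norm_eq_abs, abs_neg, norm_sub_rev a c, hac] at h4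
      linarith
    rw [hr'] at h1 h2
    rcases le_total 0 (1 + r) with h5 | h5
    · rw [abs_of_nonneg h5] at h3
      linarith
    · rw [abs_of_nonpos h5] at h3
      linarith

lemma coef_bd {a c : X} (ha : ‖a‖ = 1) (hc : ‖c‖ = 1) (hac : ‖c - a‖ = 1) (al be : ℝ) :
    |be| ≤ 2 * ‖al • c + be • a‖ := by
  by_cases hbe : be = 0
  · rw [hbe, abs_zero]; positivity
  · have h1 : al • c + be • a = be • (a + (al / be) • c) := by
      rw [smul_add, smul_smul, mul_div_cancel₀ _ hbe, add_comm]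
    rw [h1, norm_smul, Real.norm_eq_abs]
    have := dist_line ha hc hac (al / be)
    nlinarith [abs_nonneg be]

end Same

section Gam

variable {X Y : Type*} [NormedAddCommGroup X] [NormedSpace ℝ X] [NormedAddCommGroup Y]
  [NormedSpace ℝ Y]

/-- Regular points of the sphere. -/
def Reg (f : X → Y) (c : X) : Prop := ‖c‖ = 1 ∧ Sm c ∧ Sm (f c) ∧ c ∉ (DSet : Set X)

/-- Limits of the pairs of normals at regular points converging to `s`. -/
def Gam (f : X → Y) (s : X) : Set ((X →L[ℝ] ℝ) × (Y →L[ℝ] ℝ)) :=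
  {p | ∃ c : ℕ → X, (∀ n, Reg f (c n)) ∧ Tendsto c atTop (𝓝 s) ∧
    Tendsto (fun n => ((nr (c n) : X →L[ℝ] ℝ), (nr (f (c n)) : Y →L[ℝ] ℝ))) atTop (𝓝 p)}

lemma tendsto_apply {E : Type*} [NormedAddCommGroup E] [NormedSpace ℝ E] {l : ℕ → E →L[ℝ] ℝ}
    {l0 : E →L[ℝ] ℝ} {x : ℕ → E} {x0 : E} (hl : Tendsto l atTop (𝓝 l0))
    (hx : Tendsto x atTop (𝓝 x0)) : Tendsto (fun n => l n (x n)) atTop (𝓝 (l0 x0)) :=
  (isBoundedBilinearMap_apply (𝕜 := ℝ) (E := E) (F := ℝ)).continuous.continuousAt.tendsto.comp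
    (hl.prodMk_nhds hx)

lemma f_tendsto {f : X → Y} (hC : Ctx f) {c : ℕ → X} {s : X} (hs : ‖s‖ = 1)
    (hc : ∀ n, ‖c n‖ = 1) (h : Tendsto c atTop (𝓝 s)) :
    Tendsto (fun n => f (c n)) atTop (𝓝 (f s)) := by
  rw [tendsto_iff_norm_sub_tendsto_zero] at h ⊢
  have : (fun n => ‖f (c n) - f s‖) = fun n => ‖c n - s‖ := by
    funext n
    exact hC.iso.2 _ _ (hc n) hs
  rw [this]
  exact h

theorem gam_mem {f : X → Y} (hC : Ctx f) {s : X} (hs : ‖s‖ = 1) {p} (hp : p ∈ Gam f s) :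
    p.1 ∈ Nrm s ∧ p.2 ∈ Nrm (f s) := by
  obtain ⟨c, hc, hcs, hcp⟩ := hp
  have h1 : Tendsto (fun n => (nr (c n) : X →L[ℝ] ℝ)) atTop (𝓝 p.1) :=
    (continuous_fst.tendsto p).comp hcp
  have h2 : Tendsto (fun n => (nr (f (c n)) : Y →L[ℝ] ℝ)) atTop (𝓝 p.2) :=
    (continuous_snd.tendsto p).comp hcp
  refine ⟨Nrm.of_tendsto hcs h1 (fun n => nr_mem (hc n).1), ?_⟩
  exact Nrm.of_tendsto (f_tendsto hC hs (fun n => (hc n).1) hcs) h2
    (fun n => nr_mem (hC.iso.1 _ (hc n).1))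

variable [FiniteDimensional ℝ X] [FiniteDimensional ℝ Y]

/-- Subsequences of normals converge. -/
theorem exists_sub {f : X → Y} (hC : Ctx f) {c : ℕ → X} {s : X} (hc : ∀ n, Reg f (c n))
    (hcs : Tendsto c atTop (𝓝 s)) :
    ∃ p ∈ Gam f s, ∃ g : ℕ → ℕ, StrictMono g ∧
      Tendsto (fun n => ((nr (c (g n)) : X →L[ℝ] ℝ), (nr (f (c (g n))) : Y →L[ℝ] ℝ))) atTop (𝓝 p) := by
  have hcomp : IsCompact (closedBall (0 : X →L[ℝ] ℝ) 1 ×ˢ closedBall (0 : Y →L[ℝ] ℝ) 1) :=
    (isCompact_closedBall _ _).prod (isCompact_closedBall _ _)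
  have hmem : ∀ n, ((nr (c n) : X →L[ℝ] ℝ), (nr (f (c n)) : Y →L[ℝ] ℝ)) ∈
      closedBall (0 : X →L[ℝ] ℝ) 1 ×ˢ closedBall (0 : Y →L[ℝ] ℝ) 1 := by
    intro n
    refine ⟨?_, ?_⟩
    · simpa using (nr_mem (hc n).1).1
    · simpa using (nr_mem (hC.iso.1 _ (hc n).1)).1
  obtain ⟨p, -, g, hg, hlim⟩ := hcomp.tendsto_subseq hmem
  exact ⟨p, ⟨c ∘ g, fun n => hc (g n), hcs.comp hg.tendsto_atTop, hlim⟩, g, hg, hlim⟩

/-- Lemma A prime: the key identity at every point of the sphere, for every reachable pair. -/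
theorem gam_key {f : X → Y} (hC : Ctx f) (hdim : Module.finrank ℝ X = 3) {s y : X} (hs : ‖s‖ = 1)
    {p} (hp : p ∈ Gam f s) (hy : y ∈ Eo s) : p.2 (f y) = p.1 y := by
  obtain ⟨hp1, hp2⟩ := gam_mem hC hs hp
  obtain ⟨c0, hc0, hc0s, hc0p⟩ := hp
  have hy1 : ‖y‖ = 1 := hy.1
  have hsy : ‖s - y‖ = 1 := hy.2
  have hne1 : s ≠ y := by
    intro h
    rw [h, sub_self, norm_zero] at hsy
    exact zero_ne_one hsy
  have hne2 : s ≠ -y := by
    intro h
    rw [h] at hsy
    have : -y - y = (-2 : ℝ) • y := by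
      rw [neg_smul, two_smul]; abel
    rw [this, norm_smul, hy1] at hsy
    norm_num at hsy
  -- eventually `y` is off the axis of `c0 n`
  have hev1 : ∀ᶠ n in atTop, c0 n ≠ y := hc0s.eventually_ne hne1
  have hev2 : ∀ᶠ n in atTop, c0 n ≠ -y := hc0s.eventually_ne hne2
  obtain ⟨N, hN⟩ := eventually_atTop.1 (hev1.and hev2)
  set c : ℕ → X := fun n => c0 (n + N) with hc
  have hcR : ∀ n, Reg f (c n) := fun n => hc0 _
  have hcs : Tendsto c atTop (𝓝 s) := hc0s.comp (tendsto_add_atTop_nat N)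
  have hcp : Tendsto (fun n => ((nr (c n) : X →L[ℝ] ℝ), (nr (f (c n)) : Y →L[ℝ] ℝ))) atTop (𝓝 p) :=
    hc0p.comp (tendsto_add_atTop_nat N)
  have hex : ∀ n, ∃ z : X, ∃ al be : ℝ, z ∈ Eo (c n) ∧ 0 < be ∧ y = al • c n + be • z := by
    intro n
    obtain ⟨h1, h2⟩ := hN (n + N) (by omega)
    obtain ⟨γ, hγ⟩ := exists_loop hdim (hcR n).1 (hcR n).2.2.2
    have hax : ∀ r : ℝ, y ≠ r • c n := by
      intro r hr
      have h3 : |r| = 1 := by
        have := congrArg norm hr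
        rw [hy1, norm_smul, (hcR n).1, mul_one, Real.norm_eq_abs] at this
        exact this.symm
      rcases (abs_eq (by norm_num : (0:ℝ) ≤ 1)).1 h3 with h4 | h4
      · rw [h4, one_smul] at hr
        exact h1 hr.symm
      · rw [h4, neg_smul, one_smul] at hr
        exact h2 (by rw [hr, neg_neg])
    obtain ⟨t, al, be, hbe, hq⟩ := hγ.ray y hax
    exact ⟨γ t, al, be, hγ.mem t, hbe, hq⟩
  choose z al be hz hbe hyz using hex
  -- key identity along the sequence
  have hkey : ∀ n, nr (f (c n)) (f (z n)) = nr (c n) (z n) := fun n =>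
    key_zero hC hdim (hcR n).1 (hcR n).2.1 (hcR n).2.2.1 (hcR n).2.2.2 (hz n)
  -- coefficient bounds
  have hbd1 : ∀ n, |be n| ≤ 2 := by
    intro n
    have := coef_bd (a := z n) (c := c n) (hz n).1 (hcR n).1 (hz n).2 (al n) (be n)
    rwa [← hyz n, hy1, mul_one] at this
  have hbd2 : ∀ n, |al n| ≤ 2 := by
    intro n
    have h3 : ‖z n - c n‖ = 1 := by rw [norm_sub_rev]; exact (hz n).2
    have := coef_bd (a := c n) (c := z n) (hcR n).1 (hz n).1 h3 (be n) (al n)
    rw [add_comm, ← hyz n, hy1, mul_one] at this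
    exact this
  -- extraction
  have hcomp : IsCompact (sphere (0 : X) 1 ×ˢ (Set.Icc (-2 : ℝ) 2 ×ˢ Set.Icc (-2 : ℝ) 2)) :=
    (isCompact_sphere _ _).prod (isCompact_Icc.prod isCompact_Icc)
  have hmem : ∀ n, (z n, al n, be n) ∈ sphere (0 : X) 1 ×ˢ (Set.Icc (-2 : ℝ) 2 ×ˢ Set.Icc (-2 : ℝ) 2) := by
    intro n
    refine ⟨by simpa using (hz n).1, abs_le.1 (hbd2 n), abs_le.1 (hbd1 n)⟩
  obtain ⟨⟨zs, als, bes⟩, hlimmem, g, hg, hlim⟩ := hcomp.tendsto_subseq hmem
  have hzs : Tendsto (fun n => z (g n)) atTop (𝓝 zs) := (continuous_fst.tendsto _).comp hlim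
  have hals : Tendsto (fun n => al (g n)) atTop (𝓝 als) :=
    ((continuous_fst.comp continuous_snd).tendsto (zs, als, bes)).comp hlim
  have hbes : Tendsto (fun n => be (g n)) atTop (𝓝 bes) :=
    ((continuous_snd.comp continuous_snd).tendsto (zs, als, bes)).comp hlim
  have hcg : Tendsto (fun n => c (g n)) atTop (𝓝 s) := hcs.comp hg.tendsto_atTop
  have hzs1 : ‖zs‖ = 1 := by simpa using hlimmem.1
  have hzsE : zs ∈ Eo s := by
    refine ⟨hzs1, ?_⟩
    have h1 : Tendsto (fun n => ‖c (g n) - z (g n)‖) atTop (𝓝 ‖s - zs‖) := (hcg.sub hzs).norm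
    have h2 : (fun n => ‖c (g n) - z (g n)‖) = fun _ => (1 : ℝ) := by
      funext n; exact (hz (g n)).2
    rw [h2] at h1
    exact tendsto_nhds_unique h1 tendsto_const_nhds
  have hylim : y = als • s + bes • zs := by
    have h1 : Tendsto (fun n => al (g n) • c (g n) + be (g n) • z (g n)) atTop
        (𝓝 (als • s + bes • zs)) := (hals.smul hcg).add (hbes.smul hzs)
    have h2 : (fun n => al (g n) • c (g n) + be (g n) • z (g n)) = fun _ => y := by
      funext n; exact (hyz (g n)).symm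
    rw [h2] at h1
    exact tendsto_nhds_unique tendsto_const_nhds h1
  have hbes0 : 0 ≤ bes := ge_of_tendsto' hbes (fun n => (hbe (g n)).le)
  have hbes1 : 0 < bes := by
    refine lt_of_le_of_ne hbes0 (fun h => ?_)
    rw [← h, zero_smul, add_zero] at hylim
    have h3 : |als| = 1 := by
      have := congrArg norm hylim
      rw [hy1, norm_smul, hs, mul_one, Real.norm_eq_abs] at this
      exact this.symm
    rcases (abs_eq (by norm_num : (0:ℝ) ≤ 1)).1 h3 with h4 | h4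
    · rw [h4, one_smul] at hylim
      exact hne1 hylim.symm
    · rw [h4, neg_smul, one_smul] at hylim
      exact hne2 (by rw [hylim, neg_neg])
  obtain ⟨hb1, hsame⟩ := same_side hC hs hy hzsE hbes1 hylim
  rw [hb1, one_smul] at hylim
  -- limit of the key identity
  have hcpg : Tendsto (fun n => ((nr (c (g n)) : X →L[ℝ] ℝ), (nr (f (c (g n))) : Y →L[ℝ] ℝ))) atTop
      (𝓝 p) := hcp.comp hg.tendsto_atTop
  have hp1lim : Tendsto (fun n => (nr (c (g n)) : X →L[ℝ] ℝ)) atTop (𝓝 p.1) :=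
    (continuous_fst.tendsto p).comp hcpg
  have hp2lim : Tendsto (fun n => (nr (f (c (g n))) : Y →L[ℝ] ℝ)) atTop (𝓝 p.2) :=
    (continuous_snd.tendsto p).comp hcpg
  have hfz : Tendsto (fun n => f (z (g n))) atTop (𝓝 (f zs)) :=
    f_tendsto hC hzs1 (fun n => (hz (g n)).1) hzs
  have h5 : Tendsto (fun n => nr (f (c (g n))) (f (z (g n)))) atTop (𝓝 (p.2 (f zs))) :=
    tendsto_apply hp2lim hfz
  have h6 : Tendsto (fun n => nr (c (g n)) (z (g n))) atTop (𝓝 (p.1 zs)) :=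
    tendsto_apply hp1lim hzs
  have h7 : p.2 (f zs) = p.1 zs := by
    have h8 : (fun n => nr (f (c (g n))) (f (z (g n)))) = fun n => nr (c (g n)) (z (g n)) := by
      funext n; exact hkey (g n)
    rw [h8] at h5
    exact tendsto_nhds_unique h5 h6
  rw [hsame, hylim]
  simp only [map_add, map_smul, smul_eq_mul, hp1.2, hp2.2, h7]
  ring

omit [FiniteDimensional ℝ X] [FiniteDimensional ℝ Y] in
/-- The norm lower bound behind the one sided lemma. -/
lemma core_lb {s d c : X} {φ : X →L[ℝ] ℝ} (hs : ‖s‖ = 1) (hc : ‖c‖ = 1) (hφ : φ ∈ Nrm c) {e : ℝ}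
    (hne : s + d ≠ 0) (hn : ‖s + d‖ ≤ 2) (hclose : ‖c - ‖s + d‖⁻¹ • (s + d)‖ ≤ e) :
    ‖s + d‖ - 1 - 2 * e ≤ φ d := by
  have hr : 0 < ‖s + d‖ := norm_pos_iff.2 hne
  set r := ‖s + d‖ with hrdef
  have he0 : 0 ≤ e := (norm_nonneg _).trans hclose
  have h1 : r • c - (s + d) = r • (c - r⁻¹ • (s + d)) := by
    rw [smul_sub, smul_smul, mul_inv_cancel₀ hr.ne', one_smul]
  have h2 : ‖r • c - (s + d)‖ ≤ 2 * e := by
    rw [h1, norm_smul, Real.norm_of_nonneg hr.le]
    exact mul_le_mul hn hclose (norm_nonneg _) (by norm_num)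
  have h3 : φ (r • c) = r := by
    rw [map_smul, hφ.2]; simp
  have h4 : φ (r • c - d) ≤ ‖r • c - d‖ := nrm_le hφ _
  have h5 : ‖r • c - d‖ ≤ 1 + 2 * e := by
    have e1 : r • c - d = (r • c - (s + d)) + s := by abel
    rw [e1]
    refine (norm_add_le _ _).trans ?_
    rw [hs]
    linarith
  rw [map_sub, h3] at h4
  linarith

omit [FiniteDimensional ℝ X] in
lemma normalize_tendsto {s : X} (hs : ‖s‖ = 1) {d : ℕ → X} (hd : Tendsto d atTop (𝓝 0)) :
    Tendsto (fun n => ‖s + d n‖⁻¹ • (s + d n)) atTop (𝓝 s) := by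
  have h1 : Tendsto (fun n => s + d n) atTop (𝓝 s) := by
    simpa using tendsto_const_nhds.add hd
  have h2 : Tendsto (fun n => ‖s + d n‖⁻¹) atTop (𝓝 ‖s‖⁻¹) :=
    h1.norm.inv₀ (by rw [hs]; norm_num)
  have h3 := h2.smul h1
  rwa [hs, inv_one, one_smul] at h3

omit [FiniteDimensional ℝ X] [FiniteDimensional ℝ Y] in
lemma ne_zero_of_small {s d : X} (hs : ‖s‖ = 1) (hd : ‖d‖ < 1 / 2) : s + d ≠ 0 ∧ ‖s + d‖ ≤ 2 := by
  constructor
  · intro h
    have h1 : s = -d := eq_neg_of_add_eq_zero_left h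
    rw [h1, norm_neg] at hs
    linarith
  · have := norm_add_le s d
    linarith

omit [FiniteDimensional ℝ X] in
lemma unit_normalize {s : X} (h : s ≠ 0) : ‖‖s‖⁻¹ • s‖ = 1 := by
  simpa using norm_smul_inv_norm (𝕜 := ℝ) h

/-- The one sided lemma, no directional derivatives. -/
theorem one_sided {f : X → Y} (hC : Ctx f)
    (hR : ∀ z : X, ‖z‖ = 1 → ∀ ε > 0, ∃ c, Reg f c ∧ ‖c - z‖ < ε) {s : X} (hs : ‖s‖ = 1)
    {d : ℕ → X} {d' : ℕ → Y} {e : ℕ → ℝ} (he : ∀ n, 0 < e n) (he0 : Tendsto e atTop (𝓝 0))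
    {v : X} {u : Y} (hv : Tendsto (fun n => (e n)⁻¹ • d n) atTop (𝓝 v))
    (hu : Tendsto (fun n => (e n)⁻¹ • d' n) atTop (𝓝 u)) (hd : ∀ n, ‖d n‖ < 1 / 2)
    (hd' : ∀ n, ‖d' n‖ < 1 / 2) (heq : ∀ n, ‖s + d n‖ = ‖f s + d' n‖) :
    (∃ p ∈ Gam f s, p.2 u ≤ p.1 v) ∧ (∃ p ∈ Gam f s, p.1 v ≤ p.2 u) := by
  have hfs : ‖f s‖ = 1 := hC.iso.1 s hs
  have hd0 : Tendsto d atTop (𝓝 0) := by
    have h1 := he0.smul hv
    rw [zero_smul] at h1
    refine h1.congr (fun n => ?_)
    rw [smul_smul, mul_inv_cancel₀ (he n).ne', one_smul]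
  have hd'0 : Tendsto d' atTop (𝓝 0) := by
    have h1 := he0.smul hu
    rw [zero_smul] at h1
    refine h1.congr (fun n => ?_)
    rw [smul_smul, mul_inv_cancel₀ (he n).ne', one_smul]
  have he2 : Tendsto (fun n => (e n) ^ 2) atTop (𝓝 0) := by
    simpa using he0.pow 2
  have h2e : Tendsto (fun n => 2 * e n) atTop (𝓝 0) := by
    simpa using he0.const_mul 2
  constructor
  · -- first inequality: approximate in `X`
    have hex : ∀ n, ∃ c, Reg f c ∧ ‖c - ‖s + d n‖⁻¹ • (s + d n)‖ < (e n) ^ 2 := fun n =>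
      hR _ (unit_normalize (ne_zero_of_small hs (hd n)).1) _ (by have := he n; positivity)
    choose c hcR hcz using hex
    have hcs : Tendsto c atTop (𝓝 s) := by
      have h1 := normalize_tendsto hs hd0
      have h2 : Tendsto (fun n => c n - ‖s + d n‖⁻¹ • (s + d n)) atTop (𝓝 0) := by
        rw [tendsto_zero_iff_norm_tendsto_zero]
        exact squeeze_zero (fun _ => norm_nonneg _) (fun n => (hcz n).le) he2
      have h3 := h2.add h1
      simp only [sub_add_cancel, zero_add] at h3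
      exact h3
    obtain ⟨p, hp, g, hg, hlim⟩ := exists_sub hC hcR hcs
    refine ⟨p, hp, ?_⟩
    obtain ⟨hp1, hp2⟩ := gam_mem hC hs hp
    have hineq : ∀ n, p.2 ((e n)⁻¹ • d' n) - 2 * e n ≤ nr (c n) ((e n)⁻¹ • d n) := by
      intro n
      have h1 := core_lb hs (hcR n).1 (nr_mem (hcR n).1) (ne_zero_of_small hs (hd n)).1
        (ne_zero_of_small hs (hd n)).2 (hcz n).le
      have h2 := nrm_le hp2 (f s + d' n)
      rw [map_add, hp2.2, ← heq n] at h2
      have h3 : p.2 (d' n) - 2 * (e n) ^ 2 ≤ nr (c n) (d n) := by linarith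
      have hi : 0 < (e n)⁻¹ := inv_pos.2 (he n)
      have h4 := mul_le_mul_of_nonneg_left h3 hi.le
      rw [map_smul, map_smul, smul_eq_mul, smul_eq_mul]
      have h5 : (e n)⁻¹ * (2 * (e n) ^ 2) = 2 * e n := by
        field_simp [(he n).ne']
      rw [mul_sub, h5] at h4
      exact h4
    have h1lim : Tendsto (fun n => (nr (c (g n)) : X →L[ℝ] ℝ)) atTop (𝓝 p.1) :=
      (continuous_fst.tendsto p).comp hlim
    have hL : Tendsto (fun n => p.2 ((e (g n))⁻¹ • d' (g n)) - 2 * e (g n)) atTop (𝓝 (p.2 u - 0)) := by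
      refine Tendsto.sub ?_ (h2e.comp hg.tendsto_atTop)
      exact (p.2.continuous.tendsto u).comp (hu.comp hg.tendsto_atTop)
    have hRr : Tendsto (fun n => nr (c (g n)) ((e (g n))⁻¹ • d (g n))) atTop (𝓝 (p.1 v)) :=
      tendsto_apply h1lim (hv.comp hg.tendsto_atTop)
    have := le_of_tendsto_of_tendsto' hL hRr (fun n => hineq (g n))
    linarith
  · -- second inequality: approximate in `Y`
    have hexw : ∀ n, ∃ w : X, ‖w‖ = 1 ∧ f w = ‖f s + d' n‖⁻¹ • (f s + d' n) := fun n =>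
      hC.iso.3 _ (unit_normalize (ne_zero_of_small hfs (hd' n)).1)
    choose w hw1 hwf using hexw
    have hex : ∀ n, ∃ c, Reg f c ∧ ‖c - w n‖ < (e n) ^ 2 := fun n =>
      hR _ (hw1 n) _ (by have := he n; positivity)
    choose c hcR hcw using hex
    have hfcz : ∀ n, ‖f (c n) - ‖f s + d' n‖⁻¹ • (f s + d' n)‖ < (e n) ^ 2 := by
      intro n
      rw [← hwf n, hC.iso.2 _ _ (hcR n).1 (hw1 n)]
      exact hcw n
    have hws : Tendsto w atTop (𝓝 s) := by
      have h1 := normalize_tendsto hfs hd'0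
      rw [tendsto_iff_norm_sub_tendsto_zero] at h1 ⊢
      refine h1.congr (fun n => ?_)
      rw [← hwf n, hC.iso.2 _ _ (hw1 n) hs]
    have hcs : Tendsto c atTop (𝓝 s) := by
      have h2 : Tendsto (fun n => c n - w n) atTop (𝓝 0) := by
        rw [tendsto_zero_iff_norm_tendsto_zero]
        exact squeeze_zero (fun _ => norm_nonneg _) (fun n => (hcw n).le) he2
      have h3 := h2.add hws
      simp only [sub_add_cancel, zero_add] at h3
      exact h3
    obtain ⟨p, hp, g, hg, hlim⟩ := exists_sub hC hcR hcs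
    refine ⟨p, hp, ?_⟩
    obtain ⟨hp1, hp2⟩ := gam_mem hC hs hp
    have hineq : ∀ n, p.1 ((e n)⁻¹ • d n) - 2 * e n ≤ nr (f (c n)) ((e n)⁻¹ • d' n) := by
      intro n
      have h1 := core_lb hfs (hC.iso.1 _ (hcR n).1) (nr_mem (hC.iso.1 _ (hcR n).1))
        (ne_zero_of_small hfs (hd' n)).1 (ne_zero_of_small hfs (hd' n)).2 (hfcz n).le
      have h2 := nrm_le hp1 (s + d n)
      rw [map_add, hp1.2, heq n] at h2
      have h3 : p.1 (d n) - 2 * (e n) ^ 2 ≤ nr (f (c n)) (d' n) := by linarith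
      have hi : 0 < (e n)⁻¹ := inv_pos.2 (he n)
      have h4 := mul_le_mul_of_nonneg_left h3 hi.le
      rw [map_smul, map_smul, smul_eq_mul, smul_eq_mul]
      have h5 : (e n)⁻¹ * (2 * (e n) ^ 2) = 2 * e n := by
        field_simp [(he n).ne']
      rw [mul_sub, h5] at h4
      exact h4
    have h2lim : Tendsto (fun n => (nr (f (c (g n))) : Y →L[ℝ] ℝ)) atTop (𝓝 p.2) :=
      (continuous_snd.tendsto p).comp hlim
    have hL : Tendsto (fun n => p.1 ((e (g n))⁻¹ • d (g n)) - 2 * e (g n)) atTop (𝓝 (p.1 v - 0)) := by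
      refine Tendsto.sub ?_ (h2e.comp hg.tendsto_atTop)
      exact (p.1.continuous.tendsto v).comp (hv.comp hg.tendsto_atTop)
    have hRr : Tendsto (fun n => nr (f (c (g n))) ((e (g n))⁻¹ • d' (g n))) atTop (𝓝 (p.2 u)) :=
      tendsto_apply h2lim (hu.comp hg.tendsto_atTop)
    have := le_of_tendsto_of_tendsto' hL hRr (fun n => hineq (g n))
    linarith

omit [FiniteDimensional ℝ X] [FiniteDimensional ℝ Y] in
/-- The identity at the root itself. -/
theorem gam_self {f : X → Y} (hC : Ctx f) {s : X} (hs : ‖s‖ = 1) {p} (hp : p ∈ Gam f s) :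
    p.2 (f s) = p.1 s := by
  obtain ⟨h1, h2⟩ := gam_mem hC hs hp
  rw [h1.2, h2.2]

/-- The identity on `- Eo s`. -/
theorem gam_key_neg {f : X → Y} (hC : Ctx f) (hdim : Module.finrank ℝ X = 3) {s y : X}
    (hs : ‖s‖ = 1) {p} (hp : p ∈ Gam f s) (hy : y ∈ Eo s) : p.2 (f (-y)) = p.1 (-y) := by
  rw [hC.odd y hy.1, map_neg, map_neg, gam_key hC hdim hs hp hy]

/-- Linear model of a spanning triple: a reachable pair is intertwined by it. -/
theorem gam_comp {f : X → Y} {s : X} {p : (X →L[ℝ] ℝ) × (Y →L[ℝ] ℝ)} {A : X →L[ℝ] Y} {S : Set X}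
    (hspan : Submodule.span ℝ S = ⊤) (hA : ∀ z ∈ S, A z = f z) (hp : ∀ z ∈ S, p.2 (f z) = p.1 z) :
    (p.2).comp A = p.1 := by
  ext z
  have hz : z ∈ Submodule.span ℝ S := by rw [hspan]; trivial
  induction hz using Submodule.span_induction with
  | mem x hx =>
    show p.2 (A x) = p.1 x
    rw [hA x hx, hp x hx]
  | zero => simp
  | add x y _ _ hx hy =>
    show p.2 (A (x + y)) = p.1 (x + y)
    rw [map_add, map_add, map_add]
    exact congrArg₂ (· + ·) hx hy
  | smul a x _ hx =>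
    show p.2 (A (a • x)) = p.1 (a • x)
    rw [map_smul, map_smul, map_smul]
    exact congrArg (a • ·) hx

end Gam

end Vale.Agent.Lib.P084.T3
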